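import Vale.Agent.P245.Bdl.B2

/-!
# From compactly supported strongly log-concave measures to the final statement
-/

set_option linter.all false

open MeasureTheory Real Set Filter Topology
open scoped ENNReal ContDiff

namespace Vale.Agent.P245.H113

open Vale.Agent.P245 Vale.Agent.P245.LS Vale.Agent.P245.E1

variable {n : ℕ} {ρ : (Fin n → ℝ) → ℝ}

/-- the inequality for compactly supported `t`-strongly log-concave measures -/
def StS (n : ℕ) (C : ℝ) : Prop :=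
  ∀ (ρ : (Fin n → ℝ) → ℝ) (R t : ℝ), 1 ≤ n → LCd ρ → 0 < t →
    LCd (fun x => exp (t / 2 * ∑ i, x i ^ 2) * ρ x) → IsProbabilityMeasure (mu ρ) →
    CSupp (mu ρ) R → ExpM (mu ρ) 3 → DL (mu ρ) (C * (1 + 1 / √t)) 0

/-- `μ` has a density `ρ` with `log ρ + κ |x|² / 2` concave on the convex set `{ρ > 0}` -/
def StrongLC {n : ℕ} (μ : Measure (EuclideanSpace ℝ (Fin n))) (κ : ℝ) : Prop :=
  ∃ ρ : EuclideanSpace ℝ (Fin n) → ℝ, Measurable ρ ∧ (∀ x, 0 ≤ ρ x) ∧
    ConcaveOn ℝ {x | 0 < ρ x} (fun x => Real.log (ρ x) + κ / 2 * ‖x‖ ^ 2) ∧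
    μ = (volume : Measure (EuclideanSpace ℝ (Fin n))).withDensity
      (fun x => ENNReal.ofReal (ρ x))

theorem fin_dl_of_stS {C t : ℝ} (hG : StS n C) (hn : 1 ≤ n) (hρ : LCd ρ) (ht : 0 < t)
    (hρt : LCd (fun x => exp (t / 2 * ∑ i, x i ^ 2) * ρ x))
    [IsProbabilityMeasure (mu ρ)]
    (hexp : ∀ h : Fin n → ℝ, ∫⁻ x, ENNReal.ofReal (exp (∑ i, h i * x i)) ∂(mu ρ)
      ≤ 2 * ENNReal.ofReal (exp ((∑ i, h i ^ 2) / 4))) :
    DL (mu ρ) (C * (1 + 1 / √t)) 0 := by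
  apply dl_of_trunc hρ
  have : ∀ᶠ k : ℕ in atTop, 2 / 3 < (mu ρ).real (cube n k) :=
    (tendsto_real_cube (ρ := ρ)).eventually (lt_mem_nhds (by norm_num))
  filter_upwards [this] with k hk
  have hk0 : 0 < (mu ρ).real (cube n (k : ℝ)) := by linarith only [hk]
  have e : (fun x => exp (t / 2 * ∑ i, x i ^ 2) * trunc ρ k ((mu ρ).real (cube n k)) x)
      = trunc (fun x => exp (t / 2 * ∑ i, x i ^ 2) * ρ x) k ((mu ρ).real (cube n k)) := by
    funext x
    by_cases hx : x ∈ cube n (k : ℝ)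
    · rw [trunc, trunc, indicator_of_mem hx, indicator_of_mem hx, mul_div_assoc]
    · rw [trunc, trunc, indicator_of_notMem hx, indicator_of_notMem hx, mul_zero]
  exact hG (trunc ρ k ((mu ρ).real (cube n k))) k t hn (trunc_LCd hρ hk0) ht
    (by rw [e]; exact trunc_LCd hρt hk0) (isProb_muT hρ hk0)
    (csupp_muT hρ (Nat.cast_nonneg k) hk0) (expM_muT hρ (Nat.cast_nonneg k) hk.le hexp)

theorem StrongLC.lc {μ : Measure (EuclideanSpace ℝ (Fin n))} {κ : ℝ} (hκ : 0 ≤ κ)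
    (h : StrongLC μ κ) : HasLogConcaveDensity μ := by
  obtain ⟨ρ, hm, h0, hc, hμ⟩ := h
  refine ⟨ρ, hm, h0, ?_, hμ⟩
  have h2 : ConvexOn ℝ {x | 0 < ρ x} (fun x : EuclideanSpace ℝ (Fin n) => κ / 2 * ‖x‖ ^ 2) := by
    have h3 : ConvexOn ℝ univ (fun x : EuclideanSpace ℝ (Fin n) => ‖x‖ ^ 2) :=
      (convexOn_univ_norm).pow (fun x _ => norm_nonneg x) 2
    exact (h3.smul (by positivity : (0 : ℝ) ≤ κ / 2)).subset (subset_univ _) hc.1
  have h4 := hc.sub h2
  have e : (fun x : EuclideanSpace ℝ (Fin n) => Real.log (ρ x))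
      = (fun x => Real.log (ρ x) + κ / 2 * ‖x‖ ^ 2) - fun x => κ / 2 * ‖x‖ ^ 2 := by
    funext x
    simp only [Pi.sub_apply]
    ring
  rw [e]
  exact h4

/-- the normalised image on `Fin n → ℝ` of a strongly log-concave measure -/
theorem exists_LCd_strong {μ : Measure (EuclideanSpace ℝ (Fin n))} [IsProbabilityMeasure μ]
    {κ : ℝ} (hκ : 0 ≤ κ) (hlc : StrongLC μ κ) {a : ℝ} (ha : 0 < a) :
    ∃ ρ : (Fin n → ℝ) → ℝ, LCd ρ ∧ LCd (fun x => exp (a ^ 2 * κ / 2 * ∑ i, x i ^ 2) * ρ x) ∧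
      IsProbabilityMeasure (mu ρ) ∧ μ.map (scE n a ha.ne') = mu ρ := by
  have hlc1 : HasLogConcaveDensity μ := hlc.lc hκ
  obtain ⟨ρ, hm, h0, hc, hμ⟩ := hlc
  -- log-concavity of `ρ`
  have hcc : ConcaveOn ℝ {x | 0 < ρ x} (fun x => Real.log (ρ x)) := by
    have h2 : ConvexOn ℝ {x | 0 < ρ x}
        (fun x : EuclideanSpace ℝ (Fin n) => κ / 2 * ‖x‖ ^ 2) := by
      have h3 : ConvexOn ℝ univ (fun x : EuclideanSpace ℝ (Fin n) => ‖x‖ ^ 2) :=
        (convexOn_univ_norm).pow (fun x _ => norm_nonneg x) 2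
      exact (h3.smul (by positivity : (0 : ℝ) ≤ κ / 2)).subset (subset_univ _) hc.1
    have h4 := hc.sub h2
    have e : (fun x : EuclideanSpace ℝ (Fin n) => Real.log (ρ x))
        = (fun x => Real.log (ρ x) + κ / 2 * ‖x‖ ^ 2) - fun x => κ / 2 * ‖x‖ ^ 2 := by
      funext x
      simp only [Pi.sub_apply]
      ring
    rw [e]
    exact h4
  set e := (MeasurableEquiv.toLp 2 (Fin n → ℝ)).symm with he
  have hmp : MeasurePreserving e volume volume :=
    EuclideanSpace.volume_preserving_symm_measurableEquiv_toLp (Fin n)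
  set ρ0 : (Fin n → ℝ) → ℝ := fun y => ρ (WithLp.toLp 2 y) with hρ0
  have hρ0m : Measurable ρ0 := hm.comp (WithLp.measurable_toLp 2 _)
  have hmap : μ.map e = mu ρ0 := by
    ext A hA
    rw [Measure.map_apply e.measurable hA, hμ, mu, withDensity_apply _ (e.measurable hA),
      withDensity_apply _ hA]
    have := hmp.setLIntegral_comp_preimage hA (f := fun y => ENNReal.ofReal (ρ0 y))
      hρ0m.ennreal_ofReal
    rw [← this]
    rfl
  have hmap2 : μ.map (scE n a ha.ne') = mu (fun y => a ^ n * ρ0 (a • y)) := by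
    rw [← map_smul_mu hρ0m ha, ← hmap, Measure.map_map (measurable_const_smul _) e.measurable]
    rfl
  have hprob : IsProbabilityMeasure (μ.map (scE n a ha.ne')) :=
    Measure.isProbabilityMeasure_map (scE n a ha.ne').measurable.aemeasurable
  -- the strongly log-concave weight
  set ρE : EuclideanSpace ℝ (Fin n) → ℝ := fun x => exp (κ / 2 * ‖x‖ ^ 2) * ρ x with hρE
  have hE0 : ∀ x, 0 ≤ ρE x := fun x => mul_nonneg (exp_pos _).le (h0 x)
  have hset : {x | 0 < ρE x} = {x | 0 < ρ x} := by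
    ext x
    simp only [mem_setOf_eq, hρE]
    exact ⟨fun h => pos_of_mul_pos_right h (exp_pos _).le, fun h => mul_pos (exp_pos _) h⟩
  have hEc : ConcaveOn ℝ {x | 0 < ρE x} (fun x => Real.log (ρE x)) := by
    rw [hset]
    refine hc.congr ?_
    intro x hx
    simp only [mem_setOf_eq] at hx
    simp only [hρE]
    rw [Real.log_mul (exp_pos _).ne' hx.ne', Real.log_exp]
    ring
  have hEm : Measurable ρE := by
    refine Measurable.mul ?_ hm
    exact Real.measurable_exp.comp ((measurable_norm.pow_const 2).const_mul _)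
  have hL := LC_of_concaveOn hE0 hEc
  have hLd := LCd_scale (ρ := fun y : Fin n → ℝ => ρE (WithLp.toLp 2 y))
    (hEm.comp (WithLp.measurable_toLp 2 _)) (fun x => hE0 _) hL ha
  refine ⟨fun y => a ^ n * ρ0 (a • y),
    LCd_scale hρ0m (fun x => h0 _) (LC_of_concaveOn h0 hcc) ha, ?_, hmap2 ▸ hprob, hmap2⟩
  have e3 : (fun x : Fin n → ℝ => exp (a ^ 2 * κ / 2 * ∑ i, x i ^ 2) * (a ^ n * ρ0 (a • x)))
      = fun y => a ^ n * ρE (WithLp.toLp 2 (a • y)) := by
    funext y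
    simp only [hρE, hρ0]
    have e4 : ‖(WithLp.toLp 2 (a • y) : EuclideanSpace ℝ (Fin n))‖ ^ 2
        = a ^ 2 * ∑ i, y i ^ 2 := by
      rw [EuclideanSpace.norm_sq_eq, Finset.mul_sum]
      refine Finset.sum_congr rfl fun i _ => ?_
      simp only [PiLp.toLp_apply, Pi.smul_apply, smul_eq_mul, Real.norm_eq_abs, sq_abs]
      ring
    rw [e4]
    have e5 : κ / 2 * (a ^ 2 * ∑ i, y i ^ 2) = a ^ 2 * κ / 2 * ∑ i, y i ^ 2 := by ring
    rw [e5]
    ring
  rw [e3]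
  exact hLd

/-- The log-Sobolev inequality for strongly log-concave linearly subgaussian measures, from the
inequality for compactly supported normalised measures. -/
theorem logSobolev_strong_of_stS {C : ℝ} (hG : StS n C) (hn : 1 ≤ n)
    (μ : Measure (EuclideanSpace ℝ (Fin n))) [IsProbabilityMeasure μ] {κ : ℝ} (hκ : 0 < κ)
    (hlc : StrongLC μ κ) {a : ℝ} (ha : 0 < a) (hsub : LinearlySubgaussian μ a)
    {f : EuclideanSpace ℝ (Fin n) → ℝ} (hf : ContDiff ℝ ∞ f) (hs : HasCompactSupport f) :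
    Entropy μ (fun x => f x ^ 2)
      ≤ C * (a ^ 2 + a / √κ) * ∫ x, ‖gradient f x‖ ^ 2 ∂μ := by
  obtain ⟨ρ, hρ, hρt, hprob, hmap⟩ := exists_LCd_strong hκ.le hlc ha
  have hexp : ∀ h : Fin n → ℝ, ∫⁻ x, ENNReal.ofReal (Real.exp (∑ i, h i * x i)) ∂(mu ρ)
      ≤ 2 * ENNReal.ofReal (Real.exp ((∑ i, h i ^ 2) / 4)) := by
    intro h
    rw [← hmap]
    exact exp_moment_scE ha hsub h
  have hf2 : ContDiff ℝ 2 f := hf.of_le (WithTop.coe_le_coe.2 le_top)
  obtain ⟨R, -, hR⟩ := rsc_const_outside ha hs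
  have ht : 0 < a ^ 2 * κ := by positivity
  have main := fin_dl_of_stS hG hn hρ ht hρt hexp (rsc a f) ⟨contDiff_rsc hf2, R, 0, hR⟩
  have e3 : ent (mu ρ) (fun x => rsc a f x ^ 2) = Entropy μ (fun x => f x ^ 2) := by
    rw [entropy_rsc ha f (fun t => t ^ 2), hmap]
  rw [e3, energy_mu ha hmap hf2 hs, zero_mul, add_zero] at main
  refine main.trans (le_of_eq ?_)
  have hsq : √(a ^ 2 * κ) = a * √κ := by
    rw [Real.sqrt_mul (by positivity), Real.sqrt_sq ha.le]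
  rw [hsq]
  have hk : √κ ≠ 0 := (Real.sqrt_pos.2 hκ).ne'
  have ha' : a ≠ 0 := ha.ne'
  field_simp

end Vale.Agent.P245.H113
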